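import Vale.Agent.P235.H949.MeshDefs

/-!
# P235, GRID row G2: a rooted decomposition of the whole graph bounds the treewidth
-/

namespace Vale.Agent.P235.H646

open SimpleGraph Vale.Agent.P235.H949

/-- The graph of a parent function. -/
def ptree (n : ℕ) (par : ℕ → ℕ) : SimpleGraph (Fin (n + 1)) where
  Adj i j := i ≠ j ∧ ((0 < i.val ∧ par i.val = j.val) ∨ (0 < j.val ∧ par j.val = i.val))
  symm := ⟨fun _ _ ⟨h, h'⟩ => ⟨h.symm, h'.symm⟩⟩
  loopless := ⟨fun _ h => h.1 rfl⟩

theorem pre_of_parent {n : ℕ} {T : SimpleGraph (Fin (n + 1))} {S : Set (Fin (n + 1))}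
    {m : Fin (n + 1)} (hm : m ∈ S) (h : ∀ t ∈ S, t ≠ m → ∃ s ∈ S, s < t ∧ T.Adj t s) :
    (T.induce S).Preconnected := by
  have key : ∀ k : ℕ, ∀ t : Fin (n + 1), t.val = k → ∀ ht : t ∈ S,
      (T.induce S).Reachable ⟨t, ht⟩ ⟨m, hm⟩ := by
    intro k
    induction k using Nat.strong_induction_on with
    | _ k ih =>
      intro t htk ht
      by_cases hne : t = m
      · subst hne
        exact Reachable.refl _
      · obtain ⟨s, hs, hst, hadj⟩ := h t ht hne
        have h1 : (T.induce S).Adj ⟨t, ht⟩ ⟨s, hs⟩ := hadj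
        exact h1.reachable.trans (ih s.val (by rw [← htk]; exact hst) s rfl hs)
  rintro ⟨a, ha⟩ ⟨b, hb⟩
  exact (key _ a rfl ha).trans (key _ b rfl hb).symm

theorem ptree_isTree {n : ℕ} {par : ℕ → ℕ} (hp : ∀ i, 0 < i → i ≤ n → par i < i) :
    (ptree n par).IsTree := by
  have hreach : ∀ k : ℕ, ∀ t : Fin (n + 1), t.val = k → (ptree n par).Reachable t 0 := by
    intro k
    induction k using Nat.strong_induction_on with
    | _ k ih =>
      intro t htk
      rcases Nat.eq_zero_or_pos t.val with h0 | h0
      · have : t = 0 := Fin.ext h0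
        subst this
        exact Reachable.refl _
      · have hlt : par t.val < t.val := hp t.val h0 (Nat.lt_succ_iff.1 t.isLt)
        have hlt' : par t.val < n + 1 := hlt.trans t.isLt
        have h1 : (ptree n par).Adj t ⟨par t.val, hlt'⟩ := by
          refine ⟨fun h => ?_, Or.inl ⟨h0, rfl⟩⟩
          have := congrArg Fin.val h
          simp only at this
          omega
        exact h1.reachable.trans (ih _ (by rw [← htk]; exact hlt) ⟨par t.val, hlt'⟩ rfl)
  have hconn : (ptree n par).Connected :=
    { preconnected := fun a b => (hreach _ a rfl).trans (hreach _ b rfl).symm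
      nonempty := ⟨0⟩ }
  refine isTree_iff_connected_and_card.2 ⟨hconn, ?_⟩
  have hge := hconn.card_vert_le_card_edgeSet_add_one
  have hadj : ∀ i : Fin n, (ptree n par).Adj i.succ ⟨par (i.val + 1), by
      have := hp (i.val + 1) (Nat.succ_pos _) i.isLt
      have := i.isLt
      omega⟩ := by
    intro i
    have h2 := hp (i.val + 1) (Nat.succ_pos _) i.isLt
    refine ⟨fun h => ?_, Or.inl ⟨Nat.succ_pos _, rfl⟩⟩
    have := congrArg Fin.val h
    simp only [Fin.val_succ] at this
    omega
  have hsurj : Function.Surjective (fun i : Fin n =>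
      (⟨s(i.succ, _), (ptree n par).mem_edgeSet.2 (hadj i)⟩ : (ptree n par).edgeSet)) := by
    rintro ⟨e, he⟩
    induction e using Sym2.ind with
    | _ a b =>
      have hab : (ptree n par).Adj a b := (ptree n par).mem_edgeSet.1 he
      obtain ⟨hne, h | h⟩ := hab
      · refine ⟨⟨a.val - 1, by have := a.isLt; omega⟩, ?_⟩
        apply Subtype.ext
        have h1 : a.val - 1 + 1 = a.val := by omega
        have e1 : (⟨a.val - 1, by have := a.isLt; omega⟩ : Fin n).succ = a := by
          apply Fin.ext
          simp only [Fin.val_succ]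
          exact h1
        have e2 : ∀ hh : par (a.val - 1 + 1) < n + 1,
            (⟨par (a.val - 1 + 1), hh⟩ : Fin (n + 1)) = b := by
          intro hh
          apply Fin.ext
          simp only [h1]
          exact h.2
        show s(_, _) = s(a, b)
        rw [e1, e2]
      · refine ⟨⟨b.val - 1, by have := b.isLt; omega⟩, ?_⟩
        apply Subtype.ext
        have h1 : b.val - 1 + 1 = b.val := by omega
        have e1 : (⟨b.val - 1, by have := b.isLt; omega⟩ : Fin n).succ = b := by
          apply Fin.ext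
          simp only [Fin.val_succ]
          exact h1
        have e2 : ∀ hh : par (b.val - 1 + 1) < n + 1,
            (⟨par (b.val - 1 + 1), hh⟩ : Fin (n + 1)) = a := by
          intro hh
          apply Fin.ext
          simp only [h1]
          exact h.2
        show s(_, _) = s(a, b)
        rw [e1, e2, Sym2.eq_swap]
  have hle : Nat.card (ptree n par).edgeSet ≤ Nat.card (Fin n) :=
    Nat.card_le_card_of_surjective _ hsurj
  rw [Nat.card_fin] at hle hge ⊢
  omega

/-- A rooted decomposition of the whole graph is a tree decomposition. -/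
theorem RDec_treewidth {V : Type} {G : SimpleGraph V} {w n : ℕ} {B : ℕ → Finset V} {par : ℕ → ℕ}
    (h : RDec G Set.univ w n B par) : TreewidthLE G w := by
  classical
  refine ⟨Fin (n + 1), inferInstance, ptree n par, fun t => B t.val, ptree_isTree h.par_lt, ?_, ?_,
    ?_, fun t => h.card t.val (Nat.lt_succ_iff.1 t.isLt)⟩
  · intro v
    obtain ⟨i, hi, hv⟩ := h.cover v (Set.mem_univ v)
    exact ⟨⟨i, Nat.lt_succ_iff.2 hi⟩, hv⟩
  · intro u v huv
    obtain ⟨i, hi, hu, hv⟩ := h.edge u (Set.mem_univ u) v (Set.mem_univ v) huv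
    exact ⟨⟨i, Nat.lt_succ_iff.2 hi⟩, hu, hv⟩
  · intro v
    have hex : ∃ i, i ≤ n ∧ v ∈ B i := h.cover v (Set.mem_univ v)
    obtain ⟨hm1, hm2⟩ := Nat.find_spec hex
    have hmin : ∀ j, j ≤ n → v ∈ B j → Nat.find hex ≤ j := fun j hj hv => Nat.find_min' hex ⟨hj, hv⟩
    refine pre_of_parent (m := ⟨Nat.find hex, Nat.lt_succ_iff.2 hm1⟩) hm2 ?_
    intro t ht hne
    have htn : t.val ≤ n := Nat.lt_succ_iff.1 t.isLt
    have hlt : Nat.find hex < t.val := by
      refine lt_of_le_of_ne (hmin t.val htn ht) (fun he => hne (Fin.ext he.symm))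
    have h0 : 0 < t.val := by omega
    have hp := h.par_lt t.val h0 htn
    refine ⟨⟨par t.val, by omega⟩, h.rip t.val h0 htn _ hlt v ht hm2, hp, ?_, Or.inl ⟨h0, rfl⟩⟩
    intro he
    have := congrArg Fin.val he
    simp only at this
    omega

end Vale.Agent.P235.H646
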